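import Mathlib

/-!
Measure of periodic subsets of the real line on windows made of whole periods.
-/

open MeasureTheory Set

namespace Vale.Agent.Lib.P028

/-- A measurable `p`-periodic set meets any two windows of length `p` in the same measure. -/
theorem measure_periodic_window (E : Set ℝ) (hE : MeasurableSet E) (p : ℝ) (hp : 0 < p)
    (hper : ∀ x, x + p ∈ E ↔ x ∈ E) (u w : ℝ) :
    volume (E ∩ Ioc u (u + p)) = volume (E ∩ Ioc w (w + p)) := by
  have h1 := isAddFundamentalDomain_Ioc hp u volume
  have h2 := isAddFundamentalDomain_Ioc hp w volume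
  refine h1.measure_set_eq h2 hE ?_
  rintro ⟨g, hg⟩
  obtain ⟨k, rfl⟩ := AddSubgroup.mem_zmultiples_iff.mp hg
  have key : ∀ (k : ℤ) (x : ℝ), k • p + x ∈ E ↔ x ∈ E := by
    intro k
    induction k using Int.induction_on with
    | zero => intro x; simp
    | succ i ih =>
      intro x
      have : ((i : ℤ) + 1) • p + x = ((i : ℤ) • p + x) + p := by
        rw [add_zsmul, one_zsmul]; ring
      rw [this, hper, ih]
    | pred i ih =>
      intro x
      have : (-(i : ℤ)) • p + x = ((-(i : ℤ) - 1) • p + x) + p := by
        rw [sub_zsmul, one_zsmul]; ring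
      rw [← ih x, this, hper]
  ext x
  simp only [mem_preimage]
  exact key k x

/-- A measurable `p`-periodic set meets a window of `n` periods in `n` times the measure
it has in one period. -/
theorem measure_periodic_Ioc (E : Set ℝ) (hE : MeasurableSet E) (p : ℝ) (hp : 0 < p)
    (hper : ∀ x, x + p ∈ E ↔ x ∈ E) (u w : ℝ) (n : ℕ) :
    volume (E ∩ Ioc u (u + n * p)) = n * volume (E ∩ Ioc w (w + p)) := by
  induction n with
  | zero => simp
  | succ n ih =>
    have hsplit : Ioc u (u + ((n + 1 : ℕ) : ℝ) * p) =
        Ioc u (u + n * p) ∪ Ioc (u + n * p) ((u + n * p) + p) := by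
      rw [Ioc_union_Ioc_eq_Ioc]
      · congr 1; push_cast; ring
      · have : 0 ≤ (n : ℝ) * p := by positivity
        linarith
      · linarith
    rw [hsplit, inter_union_distrib_left, measure_union, ih,
      measure_periodic_window E hE p hp hper (u + n * p) w]
    · push_cast; ring
    · refine Disjoint.mono inter_subset_right inter_subset_right ?_
      rw [Set.disjoint_left]
      intro x hx hx'
      exact absurd hx.2 (not_le.mpr hx'.1)
    · exact hE.inter measurableSet_Ioc

end Vale.Agent.Lib.P028
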