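import Mathlib
import Vale.Agent.Lib.P028.Periodic

/-!
The sets `A γ q s = {x : ‖q x - γ‖ < s}` : measure, equidistribution on intervals.
-/

open MeasureTheory Set

namespace Vale.Agent.Lib.P028

/-- The set of real `x` with `|q x - a - γ| < s` for some integer `a`. -/
def A (γ : ℝ) (q : ℕ) (s : ℝ) : Set ℝ := {x | ∃ a : ℤ, |(q : ℝ) * x - a - γ| < s}

theorem isOpen_A (γ : ℝ) (q : ℕ) (s : ℝ) : IsOpen (A γ q s) := by
  have : A γ q s = ⋃ a : ℤ, {x : ℝ | |(q : ℝ) * x - a - γ| < s} := by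
    ext x; simp [A]
  rw [this]
  refine isOpen_iUnion fun a => ?_
  exact isOpen_lt (by fun_prop) continuous_const

theorem measurableSet_A (γ : ℝ) (q : ℕ) (s : ℝ) : MeasurableSet (A γ q s) :=
  (isOpen_A γ q s).measurableSet

theorem A_mono (γ : ℝ) (q : ℕ) {s t : ℝ} (h : s ≤ t) : A γ q s ⊆ A γ q t := by
  rintro x ⟨a, ha⟩
  exact ⟨a, lt_of_lt_of_le ha h⟩

/-- `A γ q s` is invariant under the shift by `1/g` whenever `g ∣ q`. -/
theorem A_periodic (γ : ℝ) (q : ℕ) (s : ℝ) (g : ℕ) (hg : 0 < g) (hgq : g ∣ q) (x : ℝ) :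
    x + 1 / (g : ℝ) ∈ A γ q s ↔ x ∈ A γ q s := by
  obtain ⟨r, rfl⟩ := hgq
  have hg' : (g : ℝ) ≠ 0 := by positivity
  have e : ∀ a : ℝ, ((g * r : ℕ) : ℝ) * (x + 1 / (g : ℝ)) - a - γ
      = ((g * r : ℕ) : ℝ) * x - (a - r) - γ := by
    intro a
    push_cast
    field_simp
    ring
  constructor
  · rintro ⟨a, ha⟩
    refine ⟨a - r, ?_⟩
    rw [e] at ha
    push_cast at ha ⊢
    exact ha
  · rintro ⟨a, ha⟩
    refine ⟨a + r, ?_⟩
    rw [e]
    push_cast
    simpa using ha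

/-- In the window centred at `γ / q` the set `A γ q s` is a single interval. -/
theorem A_inter_window (γ : ℝ) (q : ℕ) (hq : 0 < q) (s : ℝ) (hs : s ≤ 1 / 2) :
    A γ q s ∩ Ioc ((γ - 1 / 2) / q) ((γ - 1 / 2) / q + 1 / (q : ℝ))
      = Ioo ((γ - s) / q) ((γ + s) / q) := by
  have hq' : (0 : ℝ) < q := by exact_mod_cast hq
  ext x
  simp only [A, mem_inter_iff, mem_ofPred_eq, mem_Ioc, mem_Ioo]
  constructor
  · rintro ⟨⟨a, ha⟩, h1, h2⟩
    rw [div_lt_iff₀ hq'] at h1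
    have h2' : x * q ≤ γ - 1 / 2 + 1 := by
      have : (γ - 1 / 2) / q + 1 / (q : ℝ) = (γ - 1 / 2 + 1) / q := by ring
      rw [this, le_div_iff₀ hq'] at h2
      exact h2
    rw [abs_lt] at ha
    have ha0 : a = 0 := by
      have h3 : (a : ℝ) < 1 := by nlinarith [ha.1, ha.2]
      have h4 : (-1 : ℝ) < a := by nlinarith [ha.1, ha.2]
      have h3' : a < 1 := by exact_mod_cast h3
      have h4' : -1 < a := by exact_mod_cast h4
      omega
    subst ha0
    rw [div_lt_iff₀ hq', lt_div_iff₀ hq']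
    simp only [Int.cast_zero, sub_zero] at ha
    constructor <;> nlinarith [ha.1, ha.2]
  · rintro ⟨h1, h2⟩
    rw [div_lt_iff₀ hq'] at h1
    rw [lt_div_iff₀ hq'] at h2
    refine ⟨⟨0, ?_⟩, ?_, ?_⟩
    · rw [abs_lt]
      simp only [Int.cast_zero, sub_zero]
      constructor <;> nlinarith
    · rw [div_lt_iff₀ hq']; nlinarith
    · have : (γ - 1 / 2) / q + 1 / (q : ℝ) = (γ - 1 / 2 + 1) / q := by ring
      rw [this, le_div_iff₀ hq']
      nlinarith

theorem measure_A_window (γ : ℝ) (q : ℕ) (hq : 0 < q) (s : ℝ) (hs : s ≤ 1 / 2) (w : ℝ) :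
    volume (A γ q s ∩ Ioc w (w + 1 / (q : ℝ))) = ENNReal.ofReal (2 * s / q) := by
  have hq' : (0 : ℝ) < q := by exact_mod_cast hq
  rw [measure_periodic_window (A γ q s) (measurableSet_A γ q s) (1 / (q : ℝ)) (by positivity)
    (A_periodic γ q s q hq dvd_rfl) w ((γ - 1 / 2) / q), A_inter_window γ q hq s hs,
    Real.volume_Ioo]
  congr 1
  ring

/-- On a window of `n` periods. -/
theorem measure_A_Ioc (γ : ℝ) (q : ℕ) (hq : 0 < q) (s : ℝ) (hs : s ≤ 1 / 2)
    (u : ℝ) (n : ℕ) :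
    volume (A γ q s ∩ Ioc u (u + n * (1 / (q : ℝ)))) = ENNReal.ofReal (n * (2 * s / q)) := by
  have hq' : (0 : ℝ) < q := by exact_mod_cast hq
  rw [measure_periodic_Ioc (A γ q s) (measurableSet_A γ q s) (1 / (q : ℝ)) (by positivity)
    (A_periodic γ q s q hq dvd_rfl) u 0 n, measure_A_window γ q hq s hs 0,
    ENNReal.ofReal_mul (by positivity), ENNReal.ofReal_natCast]

theorem measure_A_unit (γ : ℝ) (q : ℕ) (hq : 0 < q) (s : ℝ) (hs : s ≤ 1 / 2) :
    volume (A γ q s ∩ Ioc 0 1) = ENNReal.ofReal (2 * s) := by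
  have hq' : (0 : ℝ) < q := by exact_mod_cast hq
  have h := measure_A_Ioc γ q hq s hs 0 q
  have e1 : (0 : ℝ) + q * (1 / (q : ℝ)) = 1 := by field_simp; simp
  have e2 : (q : ℝ) * (2 * s / q) = 2 * s := by field_simp
  rwa [e1, e2] at h

/-- Equidistribution (lower bound): an interval of length `l` contains at least
a proportion `l / 2` of `A γ q s`, once `q ≥ 2 / l`. -/
theorem measure_A_inter_Ioc_ge (γ : ℝ) (q : ℕ) (hq : 0 < q) (s : ℝ) (hs0 : 0 ≤ s)
    (hs : s ≤ 1 / 2) (u l : ℝ) (hl : 0 < l) (hql : 2 ≤ l * q) :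
    ENNReal.ofReal (l * s) ≤ volume (A γ q s ∩ Ioc u (u + l)) := by
  have hq' : (0 : ℝ) < q := by exact_mod_cast hq
  set n : ℕ := ⌊l * q⌋₊ with hn
  have hn1 : (n : ℝ) ≤ l * q := Nat.floor_le (by positivity)
  have hn2 : l * q < n + 1 := Nat.lt_floor_add_one _
  have hsub : Ioc u (u + n * (1 / (q : ℝ))) ⊆ Ioc u (u + l) := by
    apply Ioc_subset_Ioc_right
    have : (n : ℝ) * (1 / (q : ℝ)) ≤ l := by
      rw [mul_one_div, div_le_iff₀ hq']; exact hn1
    linarith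
  calc ENNReal.ofReal (l * s) ≤ ENNReal.ofReal (n * (2 * s / q)) := by
        apply ENNReal.ofReal_le_ofReal
        have h1 : l * q / 2 ≤ n := by linarith
        have : (n : ℝ) * (2 * s / q) = (n : ℝ) * 2 / q * s := by ring
        rw [this]
        apply mul_le_mul_of_nonneg_right _ hs0
        rw [le_div_iff₀ hq']
        linarith
    _ = volume (A γ q s ∩ Ioc u (u + n * (1 / (q : ℝ)))) := (measure_A_Ioc γ q hq s hs u n).symm
    _ ≤ volume (A γ q s ∩ Ioc u (u + l)) := measure_mono (inter_subset_inter_right _ hsub)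

end Vale.Agent.Lib.P028
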