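import Mathlib

/-!
The Chung-Erdos inequality.
-/

open MeasureTheory Set

namespace Vale.Agent.Lib.P028

theorem chung_erdos {α ι : Type*} [MeasurableSpace α] (μ : Measure α) (T : Finset ι)
    (F : ι → Set α) (hF : ∀ i ∈ T, MeasurableSet (F i)) :
    (∑ i ∈ T, μ (F i)) ^ 2 ≤ μ (⋃ i ∈ T, F i) * ∑ i ∈ T, ∑ j ∈ T, μ (F i ∩ F j) := by
  classical
  set U : Set α := ⋃ i ∈ T, F i with hU
  have hUm : MeasurableSet U := Finset.measurableSet_biUnion T hF
  set f : α → ENNReal := fun x => ∑ i ∈ T, (F i).indicator (fun _ => (1 : ENNReal)) x with hf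
  have hfm : Measurable f := by
    apply Finset.measurable_sum
    intro i hi
    exact measurable_const.indicator (hF i hi)
  have h1 : ∫⁻ x, f x ∂μ = ∑ i ∈ T, μ (F i) := by
    rw [hf, lintegral_finsetSum']
    · apply Finset.sum_congr rfl
      intro i hi
      rw [lintegral_indicator (hF i hi)]
      simp
    · intro i hi
      exact (measurable_const.indicator (hF i hi)).aemeasurable
  have h2 : ∫⁻ x, f x ^ (2 : ℝ) ∂μ = ∑ i ∈ T, ∑ j ∈ T, μ (F i ∩ F j) := by
    have e : ∀ x, f x ^ (2 : ℝ) = ∑ i ∈ T, ∑ j ∈ T, (F i ∩ F j).indicator (fun _ => (1 : ENNReal)) x := by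
      intro x
      have : f x ^ (2 : ℝ) = f x * f x := by
        rw [show (2 : ℝ) = ((2 : ℕ) : ℝ) by norm_num, ENNReal.rpow_natCast, sq]
      rw [this, hf]
      simp only
      rw [Finset.sum_mul_sum]
      apply Finset.sum_congr rfl
      intro i _
      apply Finset.sum_congr rfl
      intro j _
      by_cases hi : x ∈ F i <;> by_cases hj : x ∈ F j <;> simp [hi, hj]
    simp_rw [e]
    rw [lintegral_finsetSum']
    · apply Finset.sum_congr rfl
      intro i hi
      rw [lintegral_finsetSum']
      · apply Finset.sum_congr rfl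
        intro j hj
        rw [lintegral_indicator ((hF i hi).inter (hF j hj))]
        simp
      · intro j hj
        exact (measurable_const.indicator ((hF i hi).inter (hF j hj))).aemeasurable
    · intro i hi
      apply Finset.aemeasurable_fun_sum
      intro j hj
      exact (measurable_const.indicator ((hF i hi).inter (hF j hj))).aemeasurable
  set u : α → ENNReal := U.indicator (fun _ => (1 : ENNReal)) with hu
  have hum : Measurable u := measurable_const.indicator hUm
  have h3 : ∫⁻ x, u x ^ (2 : ℝ) ∂μ = μ U := by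
    have e : ∀ x, u x ^ (2 : ℝ) = u x := by
      intro x
      by_cases hx : x ∈ U <;> simp [hu, hx]
    simp_rw [e]
    rw [hu, lintegral_indicator hUm]
    simp
  have h4 : ∀ x, (f * u) x = f x := by
    intro x
    by_cases hx : x ∈ U
    · simp [hu, hx]
    · have : f x = 0 := by
        rw [hf]
        apply Finset.sum_eq_zero
        intro i hi
        have : x ∉ F i := fun h => hx (by rw [hU]; exact mem_biUnion hi h)
        simp [this]
      simp [this]
  have hol := ENNReal.lintegral_mul_le_Lp_mul_Lq μ (Real.HolderConjugate.two_two)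
    hfm.aemeasurable hum.aemeasurable
  simp_rw [h4] at hol
  rw [h1, h2, h3] at hol
  calc (∑ i ∈ T, μ (F i)) ^ 2
      ≤ ((∑ i ∈ T, ∑ j ∈ T, μ (F i ∩ F j)) ^ (1 / (2 : ℝ)) * μ U ^ (1 / (2 : ℝ))) ^ 2 := by
        gcongr
    _ = μ U * ∑ i ∈ T, ∑ j ∈ T, μ (F i ∩ F j) := by
        rw [mul_pow, ← ENNReal.rpow_natCast, ← ENNReal.rpow_natCast, ← ENNReal.rpow_mul,
          ← ENNReal.rpow_mul]
        norm_num
        rw [mul_comm]

end Vale.Agent.Lib.P028
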