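import Mathlib
import Vale.Agent.Lib.P028.ChungErdos

/-!
From quasi-independence on average plus equidistribution on intervals to full measure.
-/

open MeasureTheory Set Filter

namespace Vale.Agent.Lib.P028

/-- Grid approximation: a compact subset `K` of `(0,1]` inside an open set `U` is covered by
finitely many pairwise disjoint cells `(i/m, i/m + 1/m]`, `i < m`, all contained in `U`. -/
theorem exists_grid (K U : Set ℝ) (hK : IsCompact K) (hK01 : K ⊆ Ioc 0 1) (hU : IsOpen U)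
    (hKU : K ⊆ U) :
    ∃ (m : ℕ) (T : Finset ℕ), 0 < m ∧ (∀ i ∈ T, i < m) ∧
      K ⊆ (⋃ i ∈ T, Ioc ((i : ℝ) / m) ((i : ℝ) / m + 1 / m)) ∧
      (⋃ i ∈ T, Ioc ((i : ℝ) / m) ((i : ℝ) / m + 1 / m)) ⊆ U := by
  classical
  obtain ⟨δ, hδ, hthick⟩ := hK.exists_thickening_subset_open hU hKU
  obtain ⟨n, hn⟩ := exists_nat_one_div_lt hδ
  refine ⟨n + 1, (Finset.range (n + 1)).filter
    (fun i => (Ioc ((i : ℝ) / (n + 1 : ℕ)) ((i : ℝ) / (n + 1 : ℕ) + 1 / (n + 1 : ℕ)) ∩ K).Nonempty),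
    Nat.succ_pos n, ?_, ?_, ?_⟩
  · intro i hi
    exact Finset.mem_range.mp (Finset.mem_filter.mp hi).1
  · intro x hx
    have hx01 := hK01 hx
    have hm : (0 : ℝ) < ((n + 1 : ℕ) : ℝ) := by positivity
    set k : ℕ := ⌈x * ((n + 1 : ℕ) : ℝ)⌉₊ with hk
    have hxm : 0 < x * ((n + 1 : ℕ) : ℝ) := mul_pos hx01.1 hm
    have hk1 : 0 < k := Nat.ceil_pos.mpr hxm
    have hk2 : x * ((n + 1 : ℕ) : ℝ) ≤ k := Nat.le_ceil _
    have hk3 : (k : ℝ) < x * ((n + 1 : ℕ) : ℝ) + 1 := Nat.ceil_lt_add_one hxm.le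
    have hk4 : k ≤ n + 1 := by
      apply Nat.ceil_le.mpr
      calc x * ((n + 1 : ℕ) : ℝ) ≤ 1 * ((n + 1 : ℕ) : ℝ) := by
            apply mul_le_mul_of_nonneg_right hx01.2 hm.le
        _ = ((n + 1 : ℕ) : ℝ) := one_mul _
    have hcast : ((k - 1 : ℕ) : ℝ) = (k : ℝ) - 1 := by
      rw [Nat.cast_sub hk1]; simp
    have hmem : x ∈ Ioc (((k - 1 : ℕ) : ℝ) / (n + 1 : ℕ))
        (((k - 1 : ℕ) : ℝ) / (n + 1 : ℕ) + 1 / (n + 1 : ℕ)) := by
      constructor
      · rw [div_lt_iff₀ hm, hcast]; linarith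
      · rw [← add_div, le_div_iff₀ hm, hcast]; linarith
    simp only [mem_iUnion, exists_prop]
    refine ⟨k - 1, ?_, hmem⟩
    rw [Finset.mem_filter, Finset.mem_range]
    exact ⟨by omega, ⟨x, hmem, hx⟩⟩
  · intro y hy
    simp only [mem_iUnion, exists_prop] at hy
    obtain ⟨i, hi, hy⟩ := hy
    obtain ⟨z, hz, hzK⟩ := (Finset.mem_filter.mp hi).2
    apply hthick
    rw [Metric.mem_thickening_iff]
    refine ⟨z, hzK, ?_⟩
    rw [Real.dist_eq]
    have h1 : (1 : ℝ) / ((n + 1 : ℕ) : ℝ) < δ := by push_cast; exact hn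
    rw [abs_lt]
    constructor <;> linarith [hy.1, hy.2, hz.1, hz.2]

theorem grid_disjoint (m : ℕ) (hm : 0 < m) (T : Finset ℕ) :
    ((T : Set ℕ)).PairwiseDisjoint (fun i : ℕ => Ioc ((i : ℝ) / m) ((i : ℝ) / m + 1 / m)) := by
  have hm' : (0 : ℝ) < m := by exact_mod_cast hm
  intro i _ j _ hij
  rw [Function.onFun, Set.disjoint_left]
  intro x hx hx'
  have h1 : (i : ℝ) < x * m := by rw [← div_lt_iff₀ hm']; exact hx.1
  have h2 : x * m ≤ (i : ℝ) + 1 := by
    have := hx.2; rw [← add_div, le_div_iff₀ hm'] at this; exact this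
  have h3 : (j : ℝ) < x * m := by rw [← div_lt_iff₀ hm']; exact hx'.1
  have h4 : x * m ≤ (j : ℝ) + 1 := by
    have := hx'.2; rw [← add_div, le_div_iff₀ hm'] at this; exact this
  have h5 : (i : ℝ) < j + 1 := by linarith
  have h6 : (j : ℝ) < i + 1 := by linarith
  have h5' : i < j + 1 := by exact_mod_cast h5
  have h6' : j < i + 1 := by exact_mod_cast h6
  omega

theorem grid_subset_unit (m : ℕ) (hm : 0 < m) (T : Finset ℕ) (hT : ∀ i ∈ T, i < m) :
    (⋃ i ∈ T, Ioc ((i : ℝ) / m) ((i : ℝ) / m + 1 / m)) ⊆ Ioc 0 1 := by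
  have hm' : (0 : ℝ) < m := by exact_mod_cast hm
  intro x hx
  simp only [mem_iUnion, exists_prop] at hx
  obtain ⟨i, hi, hx⟩ := hx
  have him : (i : ℝ) + 1 ≤ m := by exact_mod_cast hT i hi
  constructor
  · have : (0 : ℝ) ≤ (i : ℝ) / m := by positivity
    linarith [hx.1]
  · have : (i : ℝ) / m + 1 / m ≤ 1 := by
      rw [← add_div, div_le_one hm']; exact him
    linarith [hx.2]

/-- Quasi-independence on average together with a uniform lower equidistribution bound on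
intervals forces the limsup set to have full measure in `(0,1]`. -/
theorem full_measure_of_quasi_indep (E : ℕ → Set ℝ) (hE : ∀ q, MeasurableSet (E q))
    (w : ℕ → ℝ) (hw : ∀ q, 0 ≤ w q)
    (hdiv : Tendsto (fun X => ∑ q ∈ Finset.range X, w q) atTop atTop)
    (c : ℝ) (hc : 0 < c)
    (hmix : ∀ l : ℝ, 0 < l → ∃ q₀ : ℕ, ∀ q ≥ q₀, ∀ u : ℝ,
      ENNReal.ofReal (c * l * w q) ≤ volume (E q ∩ Ioc u (u + l)))
    (C : ℝ) (hC : 0 < C)
    (hqi : ∃ᶠ X in atTop, ∑ q ∈ Finset.range X, ∑ q' ∈ Finset.range X,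
      volume (E q ∩ E q' ∩ Ioc 0 1) ≤ ENNReal.ofReal (C * (∑ q ∈ Finset.range X, w q) ^ 2)) :
    volume (Ioc (0 : ℝ) 1 \ {x | ∃ᶠ q in atTop, x ∈ E q}) = 0 := by
  classical
  by_contra hpos
  -- the sets K N
  set K : ℕ → Set ℝ := fun N => Ioc (0 : ℝ) 1 ∩ ⋂ q, ⋂ (_ : N ≤ q), (E q)ᶜ with hKdef
  have hKm : ∀ N, MeasurableSet (K N) := fun N =>
    measurableSet_Ioc.inter (MeasurableSet.iInter fun q => MeasurableSet.iInter fun _ => (hE q).compl)
  have hcover : Ioc (0 : ℝ) 1 \ {x | ∃ᶠ q in atTop, x ∈ E q} ⊆ ⋃ N, K N := by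
    rintro x ⟨hx1, hx2⟩
    simp only [mem_ofPred_eq, not_frequently, eventually_atTop] at hx2
    obtain ⟨N, hN⟩ := hx2
    refine mem_iUnion.mpr ⟨N, hx1, ?_⟩
    simp only [mem_iInter, mem_compl_iff]
    exact fun q hq => hN q hq
  obtain ⟨N, hN⟩ : ∃ N, volume (K N) ≠ 0 := by
    by_contra hall
    push Not at hall
    exact hpos (measure_mono_null hcover (measure_iUnion_null_iff.mpr hall))
  have hKfin : volume (K N) ≠ ⊤ := by
    apply ne_top_of_le_ne_top _ (measure_mono (inter_subset_left))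
    simp
  obtain ⟨K', hK'sub, hK'c, hK'pos⟩ :=
    (hKm N).exists_lt_isCompact_of_ne_top hKfin (pos_iff_ne_zero.mpr hN)
  have hK'01 : K' ⊆ Ioc 0 1 := fun x hx => (hK'sub hx).1
  have hK'fin : volume K' ≠ ⊤ := hK'c.measure_lt_top.ne
  set b : ℝ := (volume K').toReal with hb
  have hbpos : 0 < b := ENNReal.toReal_pos hK'pos.ne' hK'fin
  set ε : ℝ := (c * b) ^ 2 / (8 * C) with hε
  have hεpos : 0 < ε := by positivity
  obtain ⟨U, hKU, hUo, -, hUdiff⟩ := hK'c.measurableSet.exists_isOpen_sdiff_lt hK'fin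
    (ε := ENNReal.ofReal ε) (by simpa using hεpos)
  obtain ⟨m, T, hm, hTm, hKV, hVU⟩ := exists_grid K' U hK'c hK'01 hUo hKU
  have hm' : (0 : ℝ) < m := by exact_mod_cast hm
  set I : ℕ → Set ℝ := fun i => Ioc ((i : ℝ) / m) ((i : ℝ) / m + 1 / m) with hI
  set V : Set ℝ := ⋃ i ∈ T, I i with hV
  have hV01 : V ⊆ Ioc 0 1 := grid_subset_unit m hm T hTm
  have hdisj : ((T : Set ℕ)).PairwiseDisjoint I := grid_disjoint m hm T
  -- card T / m ≥ b
  have hcard : b ≤ (T.card : ℝ) * (1 / m) := by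
    have h1 : volume K' ≤ ENNReal.ofReal ((T.card : ℝ) * (1 / m)) := by
      calc volume K' ≤ volume V := measure_mono hKV
        _ ≤ ∑ i ∈ T, volume (I i) := measure_biUnion_finset_le _ _
        _ = ∑ _i ∈ T, ENNReal.ofReal (1 / m) := by
            apply Finset.sum_congr rfl
            intro i _
            rw [hI]; simp only [Real.volume_Ioc]; congr 1; ring
        _ = ENNReal.ofReal ((T.card : ℝ) * (1 / m)) := by
            rw [Finset.sum_const, nsmul_eq_mul, ENNReal.ofReal_mul (by positivity),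
              ENNReal.ofReal_natCast]
    rw [hb]
    exact ENNReal.toReal_le_of_le_ofReal (by positivity) h1
  obtain ⟨q₀, hq₀⟩ := hmix (1 / m) (by positivity)
  set M : ℕ := max N q₀ with hM
  -- lower bound for the measure of E q ∩ V
  have hlow : ∀ q, M ≤ q → ENNReal.ofReal (c * b * w q) ≤ volume (E q ∩ V) := by
    intro q hq
    have hq0 : q₀ ≤ q := le_trans (le_max_right _ _) hq
    have e : E q ∩ V = ⋃ i ∈ T, (E q ∩ I i) := by
      rw [hV]; simp only [inter_iUnion]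
    rw [e, measure_biUnion_finset]
    · calc ENNReal.ofReal (c * b * w q)
          ≤ ENNReal.ofReal ((T.card : ℝ) * (c * (1 / m) * w q)) := by
            apply ENNReal.ofReal_le_ofReal
            have : c * b * w q ≤ c * ((T.card : ℝ) * (1 / m)) * w q := by
              apply mul_le_mul_of_nonneg_right _ (hw q)
              exact mul_le_mul_of_nonneg_left hcard hc.le
            linarith
        _ = ∑ _i ∈ T, ENNReal.ofReal (c * (1 / m) * w q) := by
            rw [Finset.sum_const, nsmul_eq_mul, ENNReal.ofReal_mul (by positivity),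
              ENNReal.ofReal_natCast]
        _ ≤ ∑ i ∈ T, volume (E q ∩ I i) := by
            apply Finset.sum_le_sum
            intro i _
            exact hq₀ q hq0 _
    · intro i hi j hj hij
      exact (hdisj hi hj hij).mono inter_subset_right inter_subset_right
    · intro i _
      exact (hE q).inter measurableSet_Ioc
  -- E q ∩ V ⊆ U \ K'
  have hsub : ∀ q, M ≤ q → E q ∩ V ⊆ U \ K' := by
    rintro q hq x ⟨hxE, hxV⟩
    refine ⟨hVU hxV, fun hxK => ?_⟩
    have := (hK'sub hxK).2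
    simp only [mem_iInter, mem_compl_iff] at this
    exact this q (le_trans (le_max_left _ _) hq) hxE
  -- choose X
  have hev : ∀ᶠ X in atTop, M ≤ X ∧ 2 * (∑ q ∈ Finset.range M, w q) + 1 ≤ ∑ q ∈ Finset.range X, w q :=
    (eventually_ge_atTop M).and (tendsto_atTop.mp hdiv _)
  obtain ⟨X, hX1, hX2, hX3⟩ := (hqi.and_eventually hev).exists
  set Sx : ℝ := ∑ q ∈ Finset.range X, w q with hSx
  set Sm : ℝ := ∑ q ∈ Finset.range M, w q with hSm
  have hSm0 : 0 ≤ Sm := Finset.sum_nonneg fun q _ => hw q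
  have hSxpos : 0 < Sx := by linarith
  set S' : ℝ := ∑ q ∈ Finset.Ico M X, w q with hS'
  have hS'eq : S' = Sx - Sm := Finset.sum_Ico_eq_sub _ hX2
  have hS'ge : Sx / 2 ≤ S' := by rw [hS'eq]; linarith
  have hCE := chung_erdos volume (Finset.Ico M X) (fun q => E q ∩ V)
    (fun q _ => (hE q).inter (Finset.measurableSet_biUnion T fun i _ => measurableSet_Ioc))
  have hL : ENNReal.ofReal (c * b * S') ≤ ∑ q ∈ Finset.Ico M X, volume (E q ∩ V) := by
    rw [hS', Finset.mul_sum, ENNReal.ofReal_sum_of_nonneg]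
    · apply Finset.sum_le_sum
      intro q hq
      exact hlow q (Finset.mem_Ico.mp hq).1
    · intro q _
      have := hw q
      positivity
  have hUn : volume (⋃ q ∈ Finset.Ico M X, (E q ∩ V)) ≤ ENNReal.ofReal ε := by
    refine le_trans (measure_mono ?_) hUdiff.le
    intro x hx
    simp only [mem_iUnion, exists_prop] at hx
    obtain ⟨q, hq, hx⟩ := hx
    exact hsub q (Finset.mem_Ico.mp hq).1 hx
  have hR : ∑ q ∈ Finset.Ico M X, ∑ q' ∈ Finset.Ico M X, volume ((E q ∩ V) ∩ (E q' ∩ V))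
      ≤ ENNReal.ofReal (C * Sx ^ 2) := by
    refine le_trans ?_ hX1
    have hss : Finset.Ico M X ⊆ Finset.range X := by
      intro q hq; exact Finset.mem_range.mpr (Finset.mem_Ico.mp hq).2
    calc ∑ q ∈ Finset.Ico M X, ∑ q' ∈ Finset.Ico M X, volume ((E q ∩ V) ∩ (E q' ∩ V))
        ≤ ∑ q ∈ Finset.Ico M X, ∑ q' ∈ Finset.Ico M X, volume (E q ∩ E q' ∩ Ioc 0 1) := by
          apply Finset.sum_le_sum; intro q _
          apply Finset.sum_le_sum; intro q' _
          apply measure_mono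
          rintro x ⟨⟨h1, h2⟩, h3, -⟩
          exact ⟨⟨h1, h3⟩, hV01 h2⟩
      _ ≤ ∑ q ∈ Finset.Ico M X, ∑ q' ∈ Finset.range X, volume (E q ∩ E q' ∩ Ioc 0 1) := by
          apply Finset.sum_le_sum; intro q _
          exact Finset.sum_le_sum_of_subset hss
      _ ≤ ∑ q ∈ Finset.range X, ∑ q' ∈ Finset.range X, volume (E q ∩ E q' ∩ Ioc 0 1) :=
          Finset.sum_le_sum_of_subset hss
  have hfinal : ENNReal.ofReal ((c * b * S') ^ 2) ≤ ENNReal.ofReal (ε * (C * Sx ^ 2)) := by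
    have hS'0 : 0 ≤ S' := by linarith
    rw [ENNReal.ofReal_pow (by positivity), ENNReal.ofReal_mul hεpos.le]
    calc ENNReal.ofReal (c * b * S') ^ 2 ≤ (∑ q ∈ Finset.Ico M X, volume (E q ∩ V)) ^ 2 := by
          gcongr
      _ ≤ _ := hCE
      _ ≤ ENNReal.ofReal ε * ENNReal.ofReal (C * Sx ^ 2) := mul_le_mul' hUn hR
  rw [ENNReal.ofReal_le_ofReal_iff (by positivity)] at hfinal
  have h1 : (c * b * (Sx / 2)) ^ 2 ≤ (c * b * S') ^ 2 := by
    apply pow_le_pow_left₀ (by positivity)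
    apply mul_le_mul_of_nonneg_left hS'ge (by positivity)
  have h2 : ε * (C * Sx ^ 2) = (c * b) ^ 2 * Sx ^ 2 / 8 := by
    rw [hε]; field_simp
  have h3 : (c * b * (Sx / 2)) ^ 2 = (c * b) ^ 2 * Sx ^ 2 / 4 := by ring
  have h4 : 0 < (c * b) ^ 2 * Sx ^ 2 := by positivity
  linarith

end Vale.Agent.Lib.P028
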