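import Mathlib

/-!
The gcd sum (Pillai function) is at most `τ(n) n`.
-/

namespace Vale.Agent.Lib.P028

theorem card_multiples_range_le (n d : ℕ) (hd : d ∣ n) (hd0 : 0 < d) :
    ((Finset.range n).filter (fun q => d ∣ q)).card ≤ n / d := by
  have : ((Finset.range n).filter (fun q => d ∣ q)).card ≤ (Finset.range (n / d)).card := by
    apply Finset.card_le_card_of_injOn (fun q => q / d)
    · intro q hq
      have hq' := Finset.mem_filter.mp hq
      have h1 : q < n := Finset.mem_range.mp hq'.1
      simp only [Finset.coe_range, Set.mem_Iio]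
      exact Nat.div_lt_div_of_lt_of_dvd hd h1
    · intro a ha b hb hab
      have ha' := (Finset.mem_filter.mp ha).2
      have hb' := (Finset.mem_filter.mp hb).2
      simp only at hab
      obtain ⟨x, rfl⟩ := ha'
      obtain ⟨y, rfl⟩ := hb'
      rw [Nat.mul_div_cancel_left _ hd0, Nat.mul_div_cancel_left _ hd0] at hab
      rw [hab]
  simpa using this

theorem gcd_sum_le (n : ℕ) (hn : 0 < n) :
    ∑ q ∈ Finset.range n, Nat.gcd q n ≤ (Nat.divisors n).card * n := by
  have hmaps : ∀ q ∈ Finset.range n, Nat.gcd q n ∈ Nat.divisors n := by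
    intro q _
    exact Nat.mem_divisors.mpr ⟨Nat.gcd_dvd_right q n, hn.ne'⟩
  rw [← Finset.sum_fiberwise_of_maps_to hmaps]
  calc ∑ d ∈ Nat.divisors n, ∑ q ∈ Finset.range n with Nat.gcd q n = d, Nat.gcd q n
      ≤ ∑ _d ∈ Nat.divisors n, n := by
        apply Finset.sum_le_sum
        intro d hd
        have hdn : d ∣ n := Nat.dvd_of_mem_divisors hd
        have hd0 : 0 < d := Nat.pos_of_mem_divisors hd
        calc ∑ q ∈ Finset.range n with Nat.gcd q n = d, Nat.gcd q n
            = ∑ _q ∈ Finset.range n with Nat.gcd _q n = d, d := by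
              apply Finset.sum_congr rfl
              intro q hq
              exact (Finset.mem_filter.mp hq).2
          _ = ((Finset.range n).filter (fun q => Nat.gcd q n = d)).card * d := by
              rw [Finset.sum_const, smul_eq_mul]
          _ ≤ ((Finset.range n).filter (fun q => d ∣ q)).card * d := by
              apply Nat.mul_le_mul_right
              apply Finset.card_le_card
              intro q hq
              rw [Finset.mem_filter] at hq ⊢
              exact ⟨hq.1, hq.2 ▸ Nat.gcd_dvd_left q n⟩
          _ ≤ (n / d) * d := Nat.mul_le_mul_right _ (card_multiples_range_le n d hdn hd0)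
          _ = n := Nat.div_mul_cancel hdn
    _ = (Nat.divisors n).card * n := by rw [Finset.sum_const, smul_eq_mul]

end Vale.Agent.Lib.P028
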