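import Mathlib
import Vale.Agent.Lib.P028.Approx

/-!
Overlap estimate for the sets `A γ q s`.
-/

open MeasureTheory Set

namespace Vale.Agent.Lib.P028

/-- Points lying in `A γ (g r) s ∩ A γ (g r') s'` through numerators `a, a'` with
`r' a - r a' = n`. -/
def S (γ : ℝ) (g r r' : ℕ) (s s' : ℝ) (n : ℤ) : Set ℝ :=
  {x | ∃ a a' : ℤ, (r' : ℤ) * a - (r : ℤ) * a' = n ∧
    |((g * r : ℕ) : ℝ) * x - a - γ| < s ∧ |((g * r' : ℕ) : ℝ) * x - a' - γ| < s'}

theorem isOpen_S (γ : ℝ) (g r r' : ℕ) (s s' : ℝ) (n : ℤ) : IsOpen (S γ g r r' s s' n) := by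
  have : S γ g r r' s s' n = ⋃ a : ℤ, ⋃ a' : ℤ, ⋃ _ : (r' : ℤ) * a - (r : ℤ) * a' = n,
      ({x : ℝ | |((g * r : ℕ) : ℝ) * x - a - γ| < s} ∩
        {x : ℝ | |((g * r' : ℕ) : ℝ) * x - a' - γ| < s'}) := by
    ext x
    simp only [S, mem_ofPred_eq, mem_iUnion, mem_inter_iff, exists_prop]
  rw [this]
  refine isOpen_iUnion fun a => isOpen_iUnion fun a' => isOpen_iUnion fun _ => ?_
  exact (isOpen_lt (by fun_prop) continuous_const).inter (isOpen_lt (by fun_prop) continuous_const)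

theorem S_periodic (γ : ℝ) (g r r' : ℕ) (hg : 0 < g) (s s' : ℝ) (n : ℤ) (x : ℝ) :
    x + 1 / (g : ℝ) ∈ S γ g r r' s s' n ↔ x ∈ S γ g r r' s s' n := by
  have hg' : (g : ℝ) ≠ 0 := by positivity
  have e : ∀ (t : ℕ) (a : ℝ), ((g * t : ℕ) : ℝ) * (x + 1 / (g : ℝ)) - a - γ
      = ((g * t : ℕ) : ℝ) * x - (a - t) - γ := by
    intro t a
    push_cast
    field_simp
    ring
  constructor
  · rintro ⟨a, a', hn, h1, h2⟩
    refine ⟨a - r, a' - r', by rw [← hn]; ring, ?_, ?_⟩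
    · rw [e] at h1; push_cast at h1 ⊢; exact h1
    · rw [e] at h2; push_cast at h2 ⊢; exact h2
  · rintro ⟨a, a', hn, h1, h2⟩
    refine ⟨a + r, a' + r', by rw [← hn]; ring, ?_, ?_⟩
    · rw [e]; push_cast at h1 ⊢; simpa using h1
    · rw [e]; push_cast at h2 ⊢; simpa using h2

/-- In one period, `S` is contained in a single interval of radius `s / (g r)`. -/
theorem S_window (γ : ℝ) (g r r' : ℕ) (hg : 0 < g) (hr : 0 < r) (hc : Nat.Coprime r r')
    (s s' : ℝ) (hs : s ≤ 1 / 2) (n : ℤ) (a₀ a₀' : ℤ) (h₀ : (r' : ℤ) * a₀ - (r : ℤ) * a₀' = n) :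
    S γ g r r' s s' n ∩ Ioc ((a₀ + γ) / (g * r : ℕ) - 1 / (2 * g))
        ((a₀ + γ) / (g * r : ℕ) - 1 / (2 * g) + 1 / (g : ℝ))
      ⊆ Ioo ((a₀ + γ) / (g * r : ℕ) - s / (g * r : ℕ)) ((a₀ + γ) / (g * r : ℕ) + s / (g * r : ℕ)) := by
  have hg' : (0 : ℝ) < g := by exact_mod_cast hg
  have hr' : (0 : ℝ) < r := by exact_mod_cast hr
  have hr1 : (1 : ℝ) ≤ r := by exact_mod_cast hr
  rintro x ⟨⟨a, a', hn, h1, -⟩, hx1, hx2⟩
  -- `r ∣ a - a₀`
  have hdvd : (r : ℤ) ∣ a - a₀ := by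
    have h : (r : ℤ) ∣ (r' : ℤ) * (a - a₀) := by
      refine ⟨a' - a₀', ?_⟩
      have : (r' : ℤ) * a - (r : ℤ) * a' = (r' : ℤ) * a₀ - (r : ℤ) * a₀' := by rw [hn, h₀]
      linarith
    have hcop : IsCoprime (r : ℤ) (r' : ℤ) := Nat.isCoprime_iff_coprime.mpr hc
    exact hcop.dvd_of_dvd_mul_left h
  obtain ⟨j, hj⟩ := hdvd
  have ha : (a : ℝ) = a₀ + r * j := by
    have : a = a₀ + r * j := by linarith
    rw [this]; push_cast; ring
  set c : ℝ := (a₀ + γ) / (g * r : ℕ) with hcdef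
  have hgr : (0 : ℝ) < ((g * r : ℕ) : ℝ) := by push_cast; positivity
  have hc' : c * ((g * r : ℕ) : ℝ) = a₀ + γ := by
    rw [hcdef]; field_simp
  rw [abs_lt] at h1
  -- y = g (x - c) lies in (-1/2, 1/2]
  have hy1 : -(1 / 2 : ℝ) < g * (x - c) := by
    have : c - 1 / (2 * g) < x := hx1
    have h2 : (g : ℝ) * (c - 1 / (2 * g)) < g * x := mul_lt_mul_of_pos_left this hg'
    have h3 : (g : ℝ) * (c - 1 / (2 * g)) = g * c - 1 / 2 := by field_simp
    linarith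
  have hy2 : (g : ℝ) * (x - c) ≤ 1 / 2 := by
    have : x ≤ c - 1 / (2 * g) + 1 / (g : ℝ) := hx2
    have h2 : (g : ℝ) * x ≤ g * (c - 1 / (2 * g) + 1 / (g : ℝ)) := mul_le_mul_of_nonneg_left this hg'.le
    have h3 : (g : ℝ) * (c - 1 / (2 * g) + 1 / (g : ℝ)) = g * c + 1 / 2 := by field_simp; ring
    linarith
  -- r (y - j) in (-s, s)
  have hcast : ((g * r : ℕ) : ℝ) = g * r := by push_cast; ring
  have e1 : ((g * r : ℕ) : ℝ) * x - a - γ = r * (g * (x - c) - j) := by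
    have : ((g * r : ℕ) : ℝ) * x - a - γ = ((g * r : ℕ) : ℝ) * x - c * ((g * r : ℕ) : ℝ) - r * j := by
      rw [hc', ha]; ring
    rw [this, hcast]; ring
  rw [e1] at h1
  have hj0 : j = 0 := by
    have h3 : (j : ℝ) < 1 := by nlinarith [h1.1, h1.2]
    have h4 : (-1 : ℝ) < j := by nlinarith [h1.1, h1.2]
    have h3' : j < 1 := by exact_mod_cast h3
    have h4' : -1 < j := by exact_mod_cast h4
    omega
  subst hj0
  simp only [Int.cast_zero, sub_zero] at h1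
  have e2 : (r : ℝ) * (g * (x - c)) = ((g * r : ℕ) : ℝ) * (x - c) := by rw [hcast]; ring
  rw [e2] at h1
  constructor
  · have : c - x < s / ((g * r : ℕ) : ℝ) := by
      rw [lt_div_iff₀ hgr]; nlinarith [h1.1]
    linarith
  · have : x - c < s / ((g * r : ℕ) : ℝ) := by
      rw [lt_div_iff₀ hgr]; nlinarith [h1.2]
    linarith

theorem measure_S_unit (γ : ℝ) (g r r' : ℕ) (hg : 0 < g) (hr : 0 < r) (hc : Nat.Coprime r r')
    (s s' : ℝ) (hs : s ≤ 1 / 2) (n : ℤ) :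
    volume (S γ g r r' s s' n ∩ Ioc 0 1) ≤ ENNReal.ofReal (2 * s / r) := by
  have hg' : (0 : ℝ) < g := by exact_mod_cast hg
  have hr' : (0 : ℝ) < r := by exact_mod_cast hr
  by_cases hne : (S γ g r r' s s' n).Nonempty
  · obtain ⟨x₀, a₀, a₀', h₀, -, -⟩ := hne
    have h := measure_periodic_Ioc (S γ g r r' s s' n) (isOpen_S γ g r r' s s' n).measurableSet
      (1 / (g : ℝ)) (by positivity) (S_periodic γ g r r' hg s s' n) 0
      ((a₀ + γ) / (g * r : ℕ) - 1 / (2 * g)) g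
    have e1 : (0 : ℝ) + g * (1 / (g : ℝ)) = 1 := by field_simp; simp
    rw [e1] at h
    rw [h]
    calc (g : ENNReal) * volume (S γ g r r' s s' n ∩ Ioc ((a₀ + γ) / (g * r : ℕ) - 1 / (2 * g))
            ((a₀ + γ) / (g * r : ℕ) - 1 / (2 * g) + 1 / (g : ℝ)))
        ≤ (g : ENNReal) * volume (Ioo ((a₀ + γ) / (g * r : ℕ) - s / (g * r : ℕ))
            ((a₀ + γ) / (g * r : ℕ) + s / (g * r : ℕ))) := by
          gcongr
          exact S_window γ g r r' hg hr hc s s' hs n a₀ a₀' h₀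
      _ = ENNReal.ofReal (2 * s / r) := by
          rw [Real.volume_Ioo, ← ENNReal.ofReal_natCast, ← ENNReal.ofReal_mul (by positivity)]
          congr 1
          push_cast
          field_simp
          ring
  · rw [not_nonempty_iff_eq_empty] at hne
    simp [hne]

/-- The overlap is covered by the sets `S n`, `n` in a short range of integers. -/
theorem inter_subset_iUnion_S (γ : ℝ) (g r r' : ℕ) (hr : 0 < r) (s s' : ℝ) :
    A γ (g * r) s ∩ A γ (g * r') s' ⊆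
      ⋃ n ∈ Finset.Icc ⌈-(((r' : ℝ) - r) * γ) - (r' * s + r * s')⌉
        ⌊-(((r' : ℝ) - r) * γ) + (r' * s + r * s')⌋, S γ g r r' s s' n := by
  have hr' : (0 : ℝ) < r := by exact_mod_cast hr
  rintro x ⟨⟨a, ha⟩, ⟨a', ha'⟩⟩
  simp only [mem_iUnion, Finset.mem_Icc, exists_prop]
  refine ⟨(r' : ℤ) * a - (r : ℤ) * a', ⟨?_, ?_⟩, a, a', rfl, ha, ha'⟩
  all_goals
    have hr0 : (0 : ℝ) ≤ r' := by positivity
    have key : (((r' : ℤ) * a - (r : ℤ) * a' : ℤ) : ℝ) + ((r' : ℝ) - r) * γ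
        = -(r' * (((g * r : ℕ) : ℝ) * x - a - γ)) + r * (((g * r' : ℕ) : ℝ) * x - a' - γ) := by
      push_cast; ring
    rw [abs_lt] at ha ha'
    have b1 : (r' : ℝ) * (((g * r : ℕ) : ℝ) * x - a - γ) ≤ r' * s :=
      mul_le_mul_of_nonneg_left ha.2.le hr0
    have b2 : -(r' * s) ≤ (r' : ℝ) * (((g * r : ℕ) : ℝ) * x - a - γ) := by
      have := mul_le_mul_of_nonneg_left ha.1.le hr0
      linarith
    have b3 : (r : ℝ) * (((g * r' : ℕ) : ℝ) * x - a' - γ) ≤ r * s' :=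
      mul_le_mul_of_nonneg_left ha'.2.le hr'.le
    have b4 : -(r * s') ≤ (r : ℝ) * (((g * r' : ℕ) : ℝ) * x - a' - γ) := by
      have := mul_le_mul_of_nonneg_left ha'.1.le hr'.le
      linarith
  · rw [Int.ceil_le]; linarith
  · rw [Int.le_floor]; linarith

theorem card_Icc_ceil_floor_le (c D : ℝ) (hD : 0 ≤ D) :
    ((Finset.Icc ⌈c - D⌉ ⌊c + D⌋).card : ℝ) ≤ 2 * D + 1 := by
  rw [Int.card_Icc]
  have h1 : (⌊c + D⌋ : ℝ) ≤ c + D := Int.floor_le _
  have h2 : c - D ≤ (⌈c - D⌉ : ℝ) := Int.le_ceil _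
  by_cases h : 0 ≤ ⌊c + D⌋ + 1 - ⌈c - D⌉
  · have : (((⌊c + D⌋ + 1 - ⌈c - D⌉).toNat : ℤ) : ℝ) = ((⌊c + D⌋ + 1 - ⌈c - D⌉ : ℤ) : ℝ) := by
      rw [Int.toNat_of_nonneg h]
    have h3 : (((⌊c + D⌋ + 1 - ⌈c - D⌉).toNat : ℕ) : ℝ) = ((⌊c + D⌋ + 1 - ⌈c - D⌉ : ℤ) : ℝ) := by
      rw [← this, Int.cast_natCast]
    rw [h3]; push_cast; linarith
  · have : (⌊c + D⌋ + 1 - ⌈c - D⌉).toNat = 0 := by
      rw [Int.toNat_eq_zero]; omega
    rw [this]; simp; linarith

/-- One-sided overlap bound. -/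
theorem overlap_le_aux (γ : ℝ) (g r r' : ℕ) (hg : 0 < g) (hr : 0 < r) (hc : Nat.Coprime r r')
    (s s' : ℝ) (hs0 : 0 ≤ s) (hs : s ≤ 1 / 2) (hs' : 0 ≤ s') :
    volume (A γ (g * r) s ∩ A γ (g * r') s' ∩ Ioc 0 1)
      ≤ ENNReal.ofReal ((2 * (r' * s + r * s') + 1) * (2 * s / r)) := by
  have hr' : (0 : ℝ) < r := by exact_mod_cast hr
  set N := Finset.Icc ⌈-(((r' : ℝ) - r) * γ) - (r' * s + r * s')⌉
        ⌊-(((r' : ℝ) - r) * γ) + (r' * s + r * s')⌋ with hN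
  have hD : (0 : ℝ) ≤ r' * s + r * s' := by positivity
  calc volume (A γ (g * r) s ∩ A γ (g * r') s' ∩ Ioc 0 1)
      ≤ volume (⋃ n ∈ N, (S γ g r r' s s' n ∩ Ioc 0 1)) := by
        apply measure_mono
        rintro x ⟨hx, hx1⟩
        have := inter_subset_iUnion_S γ g r r' hr s s' hx
        simp only [mem_iUnion, exists_prop] at this ⊢
        obtain ⟨n, hn, hxn⟩ := this
        exact ⟨n, hn, hxn, hx1⟩
    _ ≤ ∑ n ∈ N, volume (S γ g r r' s s' n ∩ Ioc 0 1) := measure_biUnion_finset_le _ _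
    _ ≤ ∑ _n ∈ N, ENNReal.ofReal (2 * s / r) :=
        Finset.sum_le_sum fun n _ => measure_S_unit γ g r r' hg hr hc s s' hs n
    _ = ENNReal.ofReal (N.card * (2 * s / r)) := by
        rw [Finset.sum_const, nsmul_eq_mul, ENNReal.ofReal_mul (by positivity),
          ENNReal.ofReal_natCast]
    _ ≤ ENNReal.ofReal ((2 * (r' * s + r * s') + 1) * (2 * s / r)) := by
        apply ENNReal.ofReal_le_ofReal
        apply mul_le_mul_of_nonneg_right _ (by positivity)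
        exact card_Icc_ceil_floor_le _ _ hD

/-- Overlap bound in which the resonant term carries the radius of the first set. -/
theorem overlap_le_left (γ : ℝ) (q q' : ℕ) (hq : 0 < q) (hq' : 0 < q') (s s' : ℝ) (hs0 : 0 ≤ s)
    (hs : s ≤ 1 / 2) (hs'0 : 0 ≤ s') (hle : s / q ≤ s' / q') :
    volume (A γ q s ∩ A γ q' s' ∩ Ioc 0 1)
      ≤ ENNReal.ofReal (8 * s * s' + 2 * (Nat.gcd q q') * (s / q)) := by
  obtain ⟨r, r', hc, h1, h2⟩ := Nat.exists_coprime q q'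
  set g := Nat.gcd q q' with hg
  have hgpos : 0 < g := Nat.gcd_pos_of_pos_left _ hq
  have hrpos : 0 < r := by
    rcases Nat.eq_zero_or_pos r with h | h
    · rw [h, zero_mul] at h1; omega
    · exact h
  have hr'pos : 0 < r' := by
    rcases Nat.eq_zero_or_pos r' with h | h
    · rw [h, zero_mul] at h2; omega
    · exact h
  have hgR : (0 : ℝ) < g := by exact_mod_cast hgpos
  have hrR : (0 : ℝ) < r := by exact_mod_cast hrpos
  have hr'R : (0 : ℝ) < r' := by exact_mod_cast hr'pos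
  have e1 : q = g * r := by rw [mul_comm]; exact h1
  have e2 : q' = g * r' := by rw [mul_comm]; exact h2
  have hqR : (q : ℝ) = g * r := by rw [e1]; push_cast; ring
  have hq'R : (q' : ℝ) = g * r' := by rw [e2]; push_cast; ring
  have haux := overlap_le_aux γ g r r' hgpos hrpos hc s s' hs0 hs hs'0
  rw [← e1, ← e2] at haux
  refine le_trans haux (ENNReal.ofReal_le_ofReal ?_)
  -- s r' ≤ s' r
  have hle' : s * r' ≤ s' * r := by
    rw [hqR, hq'R, div_le_div_iff₀ (by positivity) (by positivity)] at hle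
    have : g * (s * r') ≤ g * (s' * r) := by nlinarith
    exact le_of_mul_le_mul_left this hgR
  have e3 : (2 * ((r' : ℝ) * s + r * s') + 1) * (2 * s / r)
      = 4 * s * (s * r') / r + 4 * s * s' + 2 * s / r := by
    field_simp; ring
  have e4 : 2 * (g : ℝ) * (s / q) = 2 * s / r := by
    rw [hqR]; field_simp
  rw [e3, e4]
  have h5 : 4 * s * (s * r') / r ≤ 4 * s * s' := by
    rw [div_le_iff₀ hrR]
    nlinarith [mul_le_mul_of_nonneg_left hle' (by positivity : (0 : ℝ) ≤ 4 * s)]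
  linarith

/-- Symmetric overlap bound. -/
theorem overlap_le (γ : ℝ) (q q' : ℕ) (hq : 0 < q) (hq' : 0 < q') (s s' : ℝ) (hs0 : 0 ≤ s)
    (hs : s ≤ 1 / 2) (hs'0 : 0 ≤ s') (hs' : s' ≤ 1 / 2) :
    volume (A γ q s ∩ A γ q' s' ∩ Ioc 0 1)
      ≤ ENNReal.ofReal (8 * s * s' + 2 * (Nat.gcd q q') * min (s / q) (s' / q')) := by
  rcases le_total (s / q) (s' / q') with h | h
  · rw [min_eq_left h]
    exact overlap_le_left γ q q' hq hq' s s' hs0 hs hs'0 h
  · rw [min_eq_right h, inter_comm (A γ q s), Nat.gcd_comm]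
    have := overlap_le_left γ q' q hq' hq s' s hs'0 hs' hs0 h
    convert this using 2
    ring

end Vale.Agent.Lib.P028
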