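import Mathlib
import Vale.Agent.Lib.P028.Overlap
import Vale.Agent.Lib.P028.FullMeasure
import Vale.Agent.Lib.P028.GcdSum

/-!
Main theorems: a divisor-function criterion for inhomogeneous approximation.
-/

open MeasureTheory Set Filter

namespace Vale.Agent.Lib.P028

/-- resonant part of the pair bound -/
noncomputable def hres (ψ : ℕ → ℝ) (q q' : ℕ) : ℝ :=
  if q < q' then 2 * ((Nat.gcd q q') * min (ψ q / q) (ψ q' / q')) else 0

/-- diagonal part of the pair bound -/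
noncomputable def hdiag (ψ : ℕ → ℝ) (q q' : ℕ) : ℝ := if q = q' then 2 * ψ q else 0

theorem hres_nonneg (ψ : ℕ → ℝ) (hψ : ∀ q, 0 ≤ ψ q) (q q' : ℕ) : 0 ≤ hres ψ q q' := by
  unfold hres
  split_ifs
  · have h1 : 0 ≤ min (ψ q / q) (ψ q' / q') :=
      le_min (div_nonneg (hψ q) (by positivity)) (div_nonneg (hψ q') (by positivity))
    positivity
  · exact le_rfl

theorem hdiag_nonneg (ψ : ℕ → ℝ) (hψ : ∀ q, 0 ≤ ψ q) (q q' : ℕ) : 0 ≤ hdiag ψ q q' := by
  unfold hdiag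
  split_ifs
  · have := hψ q; positivity
  · exact le_rfl

theorem A_zero_radius (γ : ℝ) (q : ℕ) : A γ q 0 = ∅ := by
  ext x
  simp only [A, mem_ofPred_eq, mem_empty_iff_false, iff_false, not_exists, not_lt]
  intro a
  exact abs_nonneg _

theorem pair_bound (γ : ℝ) (ψ : ℕ → ℝ) (hψ : ∀ q, 0 ≤ ψ q) (hψ2 : ∀ q, ψ q ≤ 1 / 2)
    (hψ0 : ψ 0 = 0) (q q' : ℕ) :
    volume (A γ q (ψ q) ∩ A γ q' (ψ q') ∩ Ioc 0 1)
      ≤ ENNReal.ofReal (8 * ψ q * ψ q' + hres ψ q q' + hres ψ q' q + hdiag ψ q q') := by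
  have n1 := hres_nonneg ψ hψ q q'
  have n2 := hres_nonneg ψ hψ q' q
  have n3 := hdiag_nonneg ψ hψ q q'
  have n4 : 0 ≤ 8 * ψ q * ψ q' := by have := hψ q; have := hψ q'; positivity
  rcases Nat.eq_zero_or_pos q with h0 | hq
  · subst h0; rw [hψ0, A_zero_radius]; simp
  rcases Nat.eq_zero_or_pos q' with h0 | hq'
  · subst h0; rw [hψ0, A_zero_radius]; simp
  have hqR : (0 : ℝ) < q := by exact_mod_cast hq
  have hq'R : (0 : ℝ) < q' := by exact_mod_cast hq'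
  rcases lt_trichotomy q q' with hlt | heq | hgt
  · refine le_trans (overlap_le γ q q' hq hq' _ _ (hψ q) (hψ2 q) (hψ q') (hψ2 q'))
      (ENNReal.ofReal_le_ofReal ?_)
    have : hres ψ q q' = 2 * ((Nat.gcd q q') * min (ψ q / q) (ψ q' / q')) := by
      unfold hres; rw [if_pos hlt]
    rw [this]
    linarith
  · subst heq
    rw [inter_self, measure_A_unit γ q hq _ (hψ2 q)]
    apply ENNReal.ofReal_le_ofReal
    have : hdiag ψ q q = 2 * ψ q := by unfold hdiag; rw [if_pos rfl]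
    linarith
  · refine le_trans (overlap_le γ q q' hq hq' _ _ (hψ q) (hψ2 q) (hψ q') (hψ2 q'))
      (ENNReal.ofReal_le_ofReal ?_)
    have : hres ψ q' q = 2 * ((Nat.gcd q' q) * min (ψ q' / q') (ψ q / q)) := by
      unfold hres; rw [if_pos hgt]
    rw [this, Nat.gcd_comm q' q, min_comm (ψ q' / q')]
    linarith

/-- The resonance sum: `∑_{m < n < X} gcd(m,n) min(ψ(m)/m, ψ(n)/n)`. -/
noncomputable def Gsum (ψ : ℕ → ℝ) (X : ℕ) : ℝ :=
  ∑ n ∈ Finset.range X, ∑ m ∈ Finset.range n,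
    ((Nat.gcd m n : ℕ) : ℝ) * min (ψ m / m) (ψ n / n)

theorem sum_hres_eq (ψ : ℕ → ℝ) (X q' : ℕ) (hq' : q' < X) :
    ∑ q ∈ Finset.range X, hres ψ q q'
      = 2 * ∑ m ∈ Finset.range q', ((Nat.gcd m q' : ℕ) : ℝ) * min (ψ m / m) (ψ q' / q') := by
  unfold hres
  rw [← Finset.sum_filter]
  have hfil : (Finset.range X).filter (fun q => q < q') = Finset.range q' := by
    ext q
    simp only [Finset.mem_filter, Finset.mem_range]
    constructor
    · exact fun h => h.2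
    · exact fun h => ⟨lt_trans h hq', h⟩
  rw [hfil, Finset.mul_sum]

theorem second_moment_le (γ : ℝ) (ψ : ℕ → ℝ) (hψ : ∀ q, 0 ≤ ψ q) (hψ2 : ∀ q, ψ q ≤ 1 / 2)
    (hψ0 : ψ 0 = 0) (X : ℕ) :
    ∑ q ∈ Finset.range X, ∑ q' ∈ Finset.range X,
      volume (A γ q (ψ q) ∩ A γ q' (ψ q') ∩ Ioc 0 1)
      ≤ ENNReal.ofReal (8 * (∑ q ∈ Finset.range X, ψ q) ^ 2
        + 4 * Gsum ψ X + 2 * ∑ q ∈ Finset.range X, ψ q) := by
  have hB : ∀ q q', 0 ≤ 8 * ψ q * ψ q' + hres ψ q q' + hres ψ q' q + hdiag ψ q q' := by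
    intro q q'
    have n1 := hres_nonneg ψ hψ q q'
    have n2 := hres_nonneg ψ hψ q' q
    have n3 := hdiag_nonneg ψ hψ q q'
    have n4 : 0 ≤ 8 * ψ q * ψ q' := by have := hψ q; have := hψ q'; positivity
    linarith
  calc ∑ q ∈ Finset.range X, ∑ q' ∈ Finset.range X,
        volume (A γ q (ψ q) ∩ A γ q' (ψ q') ∩ Ioc 0 1)
      ≤ ∑ q ∈ Finset.range X, ∑ q' ∈ Finset.range X,
        ENNReal.ofReal (8 * ψ q * ψ q' + hres ψ q q' + hres ψ q' q + hdiag ψ q q') := by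
        apply Finset.sum_le_sum; intro q _
        apply Finset.sum_le_sum; intro q' _
        exact pair_bound γ ψ hψ hψ2 hψ0 q q'
    _ = ENNReal.ofReal (∑ q ∈ Finset.range X, ∑ q' ∈ Finset.range X,
        (8 * ψ q * ψ q' + hres ψ q q' + hres ψ q' q + hdiag ψ q q')) := by
        rw [ENNReal.ofReal_sum_of_nonneg]
        · apply Finset.sum_congr rfl; intro q _
          rw [ENNReal.ofReal_sum_of_nonneg]
          intro q' _; exact hB q q'
        · intro q _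
          exact Finset.sum_nonneg fun q' _ => hB q q'
    _ ≤ _ := by
        apply ENNReal.ofReal_le_ofReal
        simp only [Finset.sum_add_distrib]
        have t1 : ∑ q ∈ Finset.range X, ∑ q' ∈ Finset.range X, 8 * ψ q * ψ q'
            = 8 * (∑ q ∈ Finset.range X, ψ q) ^ 2 := by
          rw [sq, Finset.sum_mul_sum, Finset.mul_sum]
          apply Finset.sum_congr rfl; intro q _
          rw [Finset.mul_sum]
          apply Finset.sum_congr rfl; intro q' _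
          ring
        have t2 : ∑ q ∈ Finset.range X, ∑ q' ∈ Finset.range X, hres ψ q' q
            = 2 * Gsum ψ X := by
          unfold Gsum
          rw [Finset.mul_sum]
          apply Finset.sum_congr rfl
          intro q hq
          exact sum_hres_eq ψ X q (Finset.mem_range.mp hq)
        have t3 : ∑ q ∈ Finset.range X, ∑ q' ∈ Finset.range X, hres ψ q q'
            = 2 * Gsum ψ X := by
          rw [Finset.sum_comm]; exact t2
        have t4 : ∑ q ∈ Finset.range X, ∑ q' ∈ Finset.range X, hdiag ψ q q'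
            = 2 * ∑ q ∈ Finset.range X, ψ q := by
          rw [Finset.mul_sum]
          apply Finset.sum_congr rfl; intro q hq
          unfold hdiag
          rw [Finset.sum_ite_eq]
          simp [hq]
        rw [t1, t2, t3, t4]
        linarith

/-- The resonance sum is bounded by the divisor-weighted sum. -/
theorem Gsum_le_tau (ψ : ℕ → ℝ) (hψ : ∀ q, 0 ≤ ψ q) (X : ℕ) :
    Gsum ψ X ≤ ∑ q ∈ Finset.range X, ((Nat.divisors q).card : ℝ) * ψ q := by
  unfold Gsum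
  apply Finset.sum_le_sum
  intro q' _
  rcases Nat.eq_zero_or_pos q' with h0 | hpos
  · subst h0; simp
  have hq'R : (0 : ℝ) < q' := by exact_mod_cast hpos
  have h2 : ((∑ q ∈ Finset.range q', Nat.gcd q q' : ℕ) : ℝ) ≤ ((Nat.divisors q').card * q' : ℕ) := by
    exact_mod_cast gcd_sum_le q' hpos
  calc ∑ m ∈ Finset.range q', ((Nat.gcd m q' : ℕ) : ℝ) * min (ψ m / m) (ψ q' / q')
      ≤ ∑ m ∈ Finset.range q', ((Nat.gcd m q' : ℕ) : ℝ) * (ψ q' / q') := by
        apply Finset.sum_le_sum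
        intro m _
        exact mul_le_mul_of_nonneg_left (min_le_right _ _) (by positivity)
    _ = ((∑ q ∈ Finset.range q', Nat.gcd q q' : ℕ) : ℝ) * (ψ q' / q') := by
        push_cast
        rw [Finset.sum_mul]
    _ ≤ ((Nat.divisors q').card * q' : ℕ) * (ψ q' / q') := by
        apply mul_le_mul_of_nonneg_right h2
        have := hψ q'; positivity
    _ = ((Nat.divisors q').card : ℝ) * ψ q' := by
        push_cast; field_simp

/-- The limsup set of the `A γ q (ψ q)`. -/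
def Wset (γ : ℝ) (ψ : ℕ → ℝ) : Set ℝ := {x | ∃ᶠ q in atTop, x ∈ A γ q (ψ q)}

theorem measurableSet_Wset (γ : ℝ) (ψ : ℕ → ℝ) : MeasurableSet (Wset γ ψ) := by
  have : Wset γ ψ = ⋂ a : ℕ, ⋃ b : ℕ, ⋃ _ : b ≥ a, A γ b (ψ b) := by
    ext x
    simp only [Wset, mem_ofPred_eq, frequently_atTop, mem_iInter, mem_iUnion, exists_prop]
  rw [this]
  exact MeasurableSet.iInter fun a => MeasurableSet.iUnion fun b => MeasurableSet.iUnion fun _ =>
    measurableSet_A γ b (ψ b)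

theorem Wset_periodic (γ : ℝ) (ψ : ℕ → ℝ) (x : ℝ) : x + 1 ∈ Wset γ ψ ↔ x ∈ Wset γ ψ := by
  have : ∀ q : ℕ, x + 1 ∈ A γ q (ψ q) ↔ x ∈ A γ q (ψ q) := by
    intro q
    have := A_periodic γ q (ψ q) 1 one_pos (one_dvd q) x
    simpa using this
  simp only [Wset, mem_ofPred_eq, this]

/-- Full measure in `(0,1]` implies full measure in `ℝ`. -/
theorem Wset_ae_of_unit (γ : ℝ) (ψ : ℕ → ℝ) (h : volume (Ioc (0 : ℝ) 1 \ Wset γ ψ) = 0) :
    ∀ᵐ x : ℝ, x ∈ Wset γ ψ := by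
  rw [ae_iff]
  have hm : MeasurableSet (Wset γ ψ)ᶜ := (measurableSet_Wset γ ψ).compl
  have hper : ∀ x, x + 1 ∈ (Wset γ ψ)ᶜ ↔ x ∈ (Wset γ ψ)ᶜ := by
    intro x; simp only [mem_compl_iff, Wset_periodic]
  have hcov : {x | ¬ x ∈ Wset γ ψ} ⊆ ⋃ n : ℤ, ((Wset γ ψ)ᶜ ∩ Ioc (n : ℝ) (n + 1)) := by
    intro x hx
    have : x ∈ ⋃ n : ℤ, Ioc (n : ℝ) (n + 1) := by rw [iUnion_Ioc_intCast]; trivial
    obtain ⟨n, hn⟩ := mem_iUnion.mp this
    exact mem_iUnion.mpr ⟨n, hx, hn⟩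
  refine measure_mono_null hcov (measure_iUnion_null_iff.mpr fun n => ?_)
  rw [measure_periodic_window _ hm 1 one_pos hper n 0]
  have : (Wset γ ψ)ᶜ ∩ Ioc (0 : ℝ) (0 + 1) = Ioc (0 : ℝ) 1 \ Wset γ ψ := by
    rw [zero_add, inter_comm]; rfl
  rw [this, h]

/-- **Gcd-sum criterion** (normalised form). -/
theorem criterion_gcd_aux (γ : ℝ) (ψ : ℕ → ℝ) (hψ : ∀ q, 0 ≤ ψ q) (hψ2 : ∀ q, ψ q ≤ 1 / 2)
    (hψ0 : ψ 0 = 0)
    (hdiv : Tendsto (fun X => ∑ q ∈ Finset.range X, ψ q) atTop atTop)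
    (C : ℝ)
    (hG : ∃ᶠ X in atTop, Gsum ψ X ≤ C * (∑ q ∈ Finset.range X, ψ q) ^ 2) :
    ∀ᵐ x : ℝ, x ∈ Wset γ ψ := by
  apply Wset_ae_of_unit
  have hC0 : 0 < 10 + 4 * |C| := by positivity
  refine full_measure_of_quasi_indep (fun q => A γ q (ψ q)) (fun q => measurableSet_A γ q (ψ q))
    ψ hψ hdiv 1 one_pos ?_ (10 + 4 * |C|) hC0 ?_
  · intro l hl
    refine ⟨⌈2 / l⌉₊ + 1, fun q hq u => ?_⟩
    have hq0 : 0 < q := by omega
    have h1 : 2 / l ≤ q := by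
      have : (⌈2 / l⌉₊ : ℝ) ≤ q := by exact_mod_cast (by omega : ⌈2 / l⌉₊ ≤ q)
      exact le_trans (Nat.le_ceil _) this
    have h2 : 2 ≤ l * q := by
      rw [div_le_iff₀ hl] at h1; linarith
    have := measure_A_inter_Ioc_ge γ q hq0 (ψ q) (hψ q) (hψ2 q) u l hl h2
    simpa using this
  · have hev : ∀ᶠ X in atTop, (1 : ℝ) ≤ ∑ q ∈ Finset.range X, ψ q := tendsto_atTop.mp hdiv 1
    refine (hG.and_eventually hev).mono ?_
    rintro X ⟨h1, h2⟩
    refine le_trans (second_moment_le γ ψ hψ hψ2 hψ0 X) (ENNReal.ofReal_le_ofReal ?_)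
    set P := ∑ q ∈ Finset.range X, ψ q with hP
    have h3 : P ≤ P ^ 2 := by nlinarith
    have h4 : C * P ^ 2 ≤ |C| * P ^ 2 := mul_le_mul_of_nonneg_right (le_abs_self C) (by positivity)
    nlinarith

/-- **Divisor-function criterion** (normalised form). -/
theorem criterion_aux (γ : ℝ) (ψ : ℕ → ℝ) (hψ : ∀ q, 0 ≤ ψ q) (hψ2 : ∀ q, ψ q ≤ 1 / 2)
    (hψ0 : ψ 0 = 0)
    (hdiv : Tendsto (fun X => ∑ q ∈ Finset.range X, ψ q) atTop atTop)
    (C : ℝ)
    (hτ : ∃ᶠ X in atTop, ∑ q ∈ Finset.range X, ((Nat.divisors q).card : ℝ) * ψ q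
      ≤ C * (∑ q ∈ Finset.range X, ψ q) ^ 2) :
    ∀ᵐ x : ℝ, x ∈ Wset γ ψ :=
  criterion_gcd_aux γ ψ hψ hψ2 hψ0 hdiv C (hτ.mono fun X h => le_trans (Gsum_le_tau ψ hψ X) h)

end Vale.Agent.Lib.P028
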