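import Mathlib
import Vale.Agent.Lib.P028.Main

/-!
Un-normalised forms of the main theorems, in plain Mathlib vocabulary.
-/

open MeasureTheory Set Filter

namespace Vale.Agent.Lib.P028

/-- the capped approximating function -/
noncomputable def cap (ψ : ℕ → ℝ) (q : ℕ) : ℝ := if q = 0 then 0 else min (ψ q) (1 / 2)

theorem cap_nonneg (ψ : ℕ → ℝ) (hψ : ∀ q, 0 ≤ ψ q) (q : ℕ) : 0 ≤ cap ψ q := by
  unfold cap
  split_ifs
  · exact le_rfl
  · exact le_min (hψ q) (by norm_num)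

theorem cap_le_half (ψ : ℕ → ℝ) (q : ℕ) : cap ψ q ≤ 1 / 2 := by
  unfold cap
  split_ifs
  · norm_num
  · exact min_le_right _ _

theorem cap_le (ψ : ℕ → ℝ) (hψ : ∀ q, 0 ≤ ψ q) (q : ℕ) : cap ψ q ≤ ψ q := by
  unfold cap
  split_ifs
  · exact hψ q
  · exact min_le_left _ _

theorem cap_zero (ψ : ℕ → ℝ) : cap ψ 0 = 0 := by simp [cap]

theorem not_summable_cap (ψ : ℕ → ℝ) (h : ¬ Summable ψ) : ¬ Summable (cap ψ) := by
  intro hs
  apply h
  have h0 := hs.tendsto_atTop_zero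
  have hev : ∀ᶠ q in atTop, cap ψ q < 1 / 2 := h0.eventually_lt_const (by norm_num)
  have hev2 : ∀ᶠ q in atTop, ψ q = cap ψ q := by
    filter_upwards [hev, eventually_gt_atTop 0] with q hq hq0
    unfold cap at hq ⊢
    rw [if_neg hq0.ne'] at hq ⊢
    rcases le_total (ψ q) (1 / 2) with h1 | h1
    · rw [min_eq_left h1]
    · rw [min_eq_right h1] at hq; exact absurd hq (lt_irrefl _)
  rw [← Nat.cofinite_eq_atTop] at hev2
  exact (summable_congr_cofinite hev2).mpr hs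

/-- From the limsup set of the capped function to the plain statement. -/
theorem infinite_of_mem_Wset_cap (γ : ℝ) (ψ : ℕ → ℝ) (hψ : ∀ q, 0 ≤ ψ q) (x : ℝ)
    (hx : x ∈ Wset γ (cap ψ)) :
    {q : ℕ | 0 < q ∧ ∃ a : ℤ, |(q : ℝ) * x - a - γ| < ψ q}.Infinite := by
  rw [← Nat.frequently_atTop_iff_infinite]
  refine Frequently.mono hx ?_
  rintro q ⟨a, ha⟩
  refine ⟨?_, a, lt_of_lt_of_le ha (cap_le ψ hψ q)⟩
  rcases Nat.eq_zero_or_pos q with h0 | h0
  · subst h0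
    rw [cap_zero] at ha
    exact absurd ha (not_lt.mpr (abs_nonneg _))
  · exact h0

/-- **Gcd-sum criterion.** -/
theorem criterion_gcd (γ : ℝ) (ψ : ℕ → ℝ) (hψ : ∀ q, 0 ≤ ψ q) (hψ2 : ∀ q, ψ q ≤ 1 / 2)
    (hdiv : ¬ Summable ψ) (C : ℝ)
    (hG : ∃ᶠ X in atTop, ∑ n ∈ Finset.range X, ∑ m ∈ Finset.Ico 1 n,
        ((Nat.gcd m n : ℕ) : ℝ) * min (ψ m / m) (ψ n / n)
      ≤ C * (∑ q ∈ Finset.range X, ψ q) ^ 2) :
    ∀ᵐ x : ℝ, {q : ℕ | 0 < q ∧ ∃ a : ℤ, |(q : ℝ) * x - a - γ| < ψ q}.Infinite := by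
  have hcapeq : ∀ q, 0 < q → cap ψ q = ψ q := by
    intro q hq
    unfold cap
    rw [if_neg hq.ne', min_eq_left (hψ2 q)]
  have hdiv' : Tendsto (fun X => ∑ q ∈ Finset.range X, cap ψ q) atTop atTop :=
    (not_summable_iff_tendsto_nat_atTop_of_nonneg (cap_nonneg ψ hψ)).mp (not_summable_cap ψ hdiv)
  -- partial sums of cap and ψ differ by ψ 0
  have hsum : ∀ X, 0 < X → ∑ q ∈ Finset.range X, ψ q = ψ 0 + ∑ q ∈ Finset.range X, cap ψ q := by
    intro X hX
    obtain ⟨Y, rfl⟩ : ∃ Y, X = Y + 1 := ⟨X - 1, by omega⟩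
    rw [Finset.sum_range_succ', Finset.sum_range_succ' (cap ψ), cap_zero, add_zero, add_comm]
    congr 1
    apply Finset.sum_congr rfl
    intro q _
    rw [hcapeq (q + 1) (Nat.succ_pos q)]
  have hGsum : ∀ X, Gsum (cap ψ) X = ∑ n ∈ Finset.range X, ∑ m ∈ Finset.Ico 1 n,
        ((Nat.gcd m n : ℕ) : ℝ) * min (ψ m / m) (ψ n / n) := by
    intro X
    unfold Gsum
    apply Finset.sum_congr rfl
    intro n _
    rcases Nat.eq_zero_or_pos n with h0 | h0
    · subst h0; simp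
    · rw [Finset.range_eq_Ico, Finset.sum_eq_sum_Ico_succ_bot h0]
      have : ((Nat.gcd 0 n : ℕ) : ℝ) * min (cap ψ 0 / ((0 : ℕ) : ℝ)) (cap ψ n / n) = 0 := by
        have h1 : 0 ≤ cap ψ n / n := div_nonneg (cap_nonneg ψ hψ n) (by positivity)
        simp [h1]
      rw [this, zero_add]
      apply Finset.sum_congr rfl
      intro m hm
      rw [hcapeq m (Finset.mem_Ico.mp hm).1, hcapeq n h0]
  have hmain := criterion_gcd_aux γ (cap ψ) (cap_nonneg ψ hψ) (cap_le_half ψ) (cap_zero ψ) hdiv'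
    (4 * |C|) ?_
  · filter_upwards [hmain] with x hx
    exact infinite_of_mem_Wset_cap γ ψ hψ x hx
  · have hev : ∀ᶠ X in atTop, (1 : ℝ) ≤ ∑ q ∈ Finset.range X, cap ψ q := tendsto_atTop.mp hdiv' 1
    refine ((hG.and_eventually hev).and_eventually (eventually_gt_atTop 0)).mono ?_
    rintro X ⟨⟨h1, h2⟩, h3⟩
    rw [hGsum]
    refine le_trans h1 ?_
    rw [hsum X h3]
    set P := ∑ q ∈ Finset.range X, cap ψ q with hP
    have h4 : ψ 0 + P ≤ 2 * P := by have := hψ2 0; linarith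
    have h5 : 0 ≤ ψ 0 + P := by have := hψ 0; linarith
    have h6 : (ψ 0 + P) ^ 2 ≤ (2 * P) ^ 2 := pow_le_pow_left₀ h5 h4 2
    calc C * (ψ 0 + P) ^ 2 ≤ |C| * (ψ 0 + P) ^ 2 :=
          mul_le_mul_of_nonneg_right (le_abs_self C) (by positivity)
      _ ≤ |C| * (2 * P) ^ 2 := mul_le_mul_of_nonneg_left h6 (abs_nonneg C)
      _ = 4 * |C| * P ^ 2 := by ring

/-- **Bounded number of divisors on the support.** -/
theorem bounded_divisors (γ : ℝ) (ψ : ℕ → ℝ) (hψ : ∀ q, 0 ≤ ψ q) (K : ℕ)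
    (hK : ∀ q, ψ q ≠ 0 → (Nat.divisors q).card ≤ K)
    (hdiv : ¬ Summable (fun q : ℕ => (Nat.totient q : ℝ) / q * ψ q)) :
    ∀ᵐ x : ℝ, {q : ℕ | 0 < q ∧ ∃ a : ℤ, |(q : ℝ) * x - a - γ| < ψ q}.Infinite := by
  have hdiv1 : ¬ Summable ψ := by
    intro hs
    apply hdiv
    refine Summable.of_nonneg_of_le (fun q => ?_) (fun q => ?_) hs
    · have := hψ q; positivity
    · have h1 : (Nat.totient q : ℝ) / q ≤ 1 := by
        apply div_le_one_of_le₀ _ (by positivity)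
        exact_mod_cast Nat.totient_le q
      calc (Nat.totient q : ℝ) / q * ψ q ≤ 1 * ψ q := mul_le_mul_of_nonneg_right h1 (hψ q)
        _ = ψ q := one_mul _
  have hdiv' : Tendsto (fun X => ∑ q ∈ Finset.range X, cap ψ q) atTop atTop :=
    (not_summable_iff_tendsto_nat_atTop_of_nonneg (cap_nonneg ψ hψ)).mp (not_summable_cap ψ hdiv1)
  have hmain := criterion_aux γ (cap ψ) (cap_nonneg ψ hψ) (cap_le_half ψ) (cap_zero ψ) hdiv'
    K ?_
  · filter_upwards [hmain] with x hx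
    exact infinite_of_mem_Wset_cap γ ψ hψ x hx
  · have hev : ∀ᶠ X in atTop, (1 : ℝ) ≤ ∑ q ∈ Finset.range X, cap ψ q := tendsto_atTop.mp hdiv' 1
    refine hev.frequently.mono ?_
    intro X h1
    set P := ∑ q ∈ Finset.range X, cap ψ q with hP
    have h2 : ∑ q ∈ Finset.range X, ((Nat.divisors q).card : ℝ) * cap ψ q ≤ K * P := by
      rw [hP, Finset.mul_sum]
      apply Finset.sum_le_sum
      intro q _
      by_cases h0 : ψ q = 0
      · have : cap ψ q = 0 := le_antisymm (h0 ▸ cap_le ψ hψ q) (cap_nonneg ψ hψ q)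
        rw [this]; simp
      · apply mul_le_mul_of_nonneg_right _ (cap_nonneg ψ hψ q)
        exact_mod_cast hK q h0
    have h3 : P ≤ P ^ 2 := by nlinarith
    calc _ ≤ K * P := h2
      _ ≤ K * P ^ 2 := mul_le_mul_of_nonneg_left h3 (by positivity)

end Vale.Agent.Lib.P028
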